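import Vale.Agent.P331.H316.Rows

/-!
# Restriction of the functionals to the relevant elements; cores
-/

set_option autoImplicit false
set_option linter.unusedSectionVars false
set_option linter.unusedVariables false

namespace Vale.Agent.P331.H221

open Finset Vale.Agent.P331.H489 Vale.Agent.P331.H316
open scoped Classical

section

variable {E : Type} [Fintype E]

theorem ind_nonneg (P : Prop) : 0 ≤ ind P := by unfold ind; split_ifs <;> norm_num

theorem ind_le_one (P : Prop) : ind P ≤ 1 := by unfold ind; split_ifs <;> norm_num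

theorem ind_pos {P : Prop} (h : P) : ind P = 1 := if_pos h

theorem ind_neg {P : Prop} (h : ¬ P) : ind P = 0 := if_neg h

theorem ind_congr {P Q : Prop} (h : P ↔ Q) : ind P = ind Q := by
  unfold ind; simp only [h]

theorem ind_mono {P Q : Prop} (h : P → Q) : ind P ≤ ind Q := by
  by_cases hP : P
  · rw [ind_pos hP, ind_pos (h hP)]
  · rw [ind_neg hP]; exact ind_nonneg Q

theorem tw_nonneg {τ : ℝ} (h0 : 0 ≤ τ) (h1 : τ ≤ 1) (b : Bool) : 0 ≤ tw τ b := by
  unfold tw; split_ifs <;> linarith

theorem tw_sum (τ : ℝ) : ∑ b, tw τ b = 1 := by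
  rw [Fintype.sum_bool]; simp [tw]

theorem thin_congr {τ : ℝ} {S : Finset E} {F F' : Finset E → ℝ} (h : ∀ G ⊆ S, F G = F' G) :
    thin τ S F = thin τ S F' := by
  unfold thin
  congr 1
  funext c
  exact h _ (filter_subset _ _)

theorem thin_mono {τ : ℝ} (h0 : 0 ≤ τ) (h1 : τ ≤ 1) {S : Finset E} {F F' : Finset E → ℝ}
    (h : ∀ G ⊆ S, F G ≤ F' G) : thin τ S F ≤ thin τ S F' := by
  unfold thin
  exact EX_mono (fun _ b => tw_nonneg h0 h1 b) fun c => h _ (filter_subset _ _)

theorem thin_const (τ : ℝ) (S : Finset E) (a : ℝ) : thin τ S (fun _ => a) = a := by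
  unfold thin
  exact EX_one _ (fun _ => tw_sum τ) a

theorem thin_nonneg {τ : ℝ} (h0 : 0 ≤ τ) (h1 : τ ≤ 1) {S : Finset E} {F : Finset E → ℝ}
    (h : ∀ G ⊆ S, 0 ≤ F G) : 0 ≤ thin τ S F := by
  unfold thin
  exact EX_nonneg (fun _ b => tw_nonneg h0 h1 b) fun c => h _ (filter_subset _ _)

/-- the empty set has probability at least `(1 - τ) ^ |E|` -/
theorem thin_ge_empty {τ : ℝ} (h0 : 0 ≤ τ) (h1 : τ ≤ 1) {S : Finset E} {F : Finset E → ℝ}
    (h : ∀ G ⊆ S, 0 ≤ F G) : (1 - τ) ^ Fintype.card E * F ∅ ≤ thin τ S F := by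
  unfold thin EX
  have h2 : ∀ c : E → Bool, 0 ≤ (∏ e, tw τ (c e)) * F (S.filter fun e => c e = true) :=
    fun c => mul_nonneg (prod_nonneg fun e _ => tw_nonneg h0 h1 _) (h _ (filter_subset _ _))
  have h3 := single_le_sum (f := fun c : E → Bool => (∏ e, tw τ (c e)) *
    F (S.filter fun e => c e = true)) (fun c _ => h2 c) (mem_univ (fun _ : E => false))
  refine le_trans (le_of_eq ?_) h3
  simp [tw]

theorem thin_filter (τ : ℝ) (S : Finset E) (H : E → Prop) (F : Finset E → ℝ) :
    thin τ S (fun G => F (G.filter H)) = thin τ (S.filter H) F := by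
  unfold thin
  congr 1
  funext c
  have h : (S.filter fun e => c e = true).filter H = (S.filter H).filter fun e => c e = true := by
    ext e
    simp only [mem_filter]
    tauto
  exact congrArg F h

variable {D D₀ : Finset E → Prop} {H : E → Prop}

theorem psi_res (hD : ∀ U, D U ↔ D₀ (U.filter H)) (t : ℝ) (I U : Finset E) :
    psi D t I U = psi D₀ t (I.filter H) (U.filter H) := by
  unfold psi
  rw [← thin_filter]
  congr 1
  funext N
  rw [hD, filter_union]

theorem fl_res (hD : ∀ U, D U ↔ D₀ (U.filter H)) (n t e : ℝ) (R I U : Finset E) :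
    fl D n t e R I U = fl D₀ n t e (R.filter H) (I.filter H) (U.filter H) := by
  unfold fl
  rw [← thin_filter]
  congr 1
  funext N
  rw [psi_res hD, filter_union]

theorem sdiff_filter' (R G : Finset E) (H : E → Prop) :
    (R \ G).filter H = R.filter H \ G.filter H := by
  ext e
  simp only [mem_filter, mem_sdiff]
  tauto

theorem filter_eq_of {Y : Finset E} (hY : ∀ e ∈ Y, H e) : Y.filter H = Y :=
  filter_true_of_mem hY

theorem bb_res (hD : ∀ U, D U ↔ D₀ (U.filter H)) (n t e lam : ℝ) (kap : ℕ)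
    (R I A G : Finset E) (hA : ∀ e ∈ A, H e) :
    bb D n t e lam kap R I A G ↔ bb D₀ n t e lam kap (R.filter H) (I.filter H) A (G.filter H) := by
  unfold bb
  refine exists_congr fun Y => and_congr_right fun hY => and_congr_right fun _ => ?_
  rw [fl_res hD, filter_union, sdiff_filter', filter_eq_of fun e he => hA e (hY he)]

theorem BB_res (hD : ∀ U, D U ↔ D₀ (U.filter H)) (g n t e lam zet : ℝ) (kap : ℕ)
    (R I A : Finset E) (hA : ∀ e ∈ A, H e) :
    BB D g n t e lam zet kap R I A ↔ BB D₀ g n t e lam zet kap (R.filter H) (I.filter H) A := by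
  unfold BB
  rw [← thin_filter]
  have : (fun G => ind (bb D n t e lam kap R I A G)) = fun G : Finset E =>
      ind (bb D₀ n t e lam kap (R.filter H) (I.filter H) A (G.filter H)) := by
    funext G
    exact ind_congr (bb_res hD n t e lam kap R I A G hA)
  rw [this]

theorem Piv_res (hD : ∀ U, D U ↔ D₀ (U.filter H)) {b : E} (hb : H b) (U : Finset E) :
    Piv D b U ↔ Piv D₀ b (U.filter H) := by
  unfold Piv
  rw [hD, hD, filter_insert, if_pos hb]
  have : (U.erase b).filter H = (U.filter H).erase b := by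
    ext e
    simp only [mem_filter, mem_erase]
    tauto
  rw [this]

theorem ppiv_res (hD : ∀ U, D U ↔ D₀ (U.filter H)) {b : E} (hb : H b) (t : ℝ)
    (I U : Finset E) : ppiv D t I b U = ppiv D₀ t (I.filter H) b (U.filter H) := by
  unfold ppiv
  rw [← thin_filter]
  congr 1
  funext N
  rw [← filter_union]
  exact ind_congr (Piv_res hD hb _)

theorem rel_res (hD : ∀ U, D U ↔ D₀ (U.filter H)) {b : E} (hb : H b) (t dl : ℝ) (kap : ℕ)
    (I X W : Finset E) (hX : ∀ e ∈ X, H e) :
    rel D t dl kap I X b W ↔ rel D₀ t dl kap (I.filter H) X b (W.filter H) := by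
  unfold rel
  refine exists_congr fun U => and_congr_right fun hU => and_congr_right fun _ => ?_
  rw [ppiv_res hD hb, filter_union, filter_eq_of fun e he => hX e (mem_of_mem_erase (hU he))]

theorem rho_res (hD : ∀ U, D U ↔ D₀ (U.filter H)) {b : E} (hb : H b) (g n t dl : ℝ) (kap : ℕ)
    (R I X : Finset E) (hX : ∀ e ∈ X, H e) :
    rho D g n t dl kap R I X b = rho D₀ g n t dl kap (R.filter H) (I.filter H) X b := by
  unfold rho
  rw [← thin_filter]
  congr 1
  funext G
  rw [← sdiff_filter', ← thin_filter]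
  congr 1
  funext N
  rw [← filter_union]
  exact ind_congr (rel_res hD hb t dl kap I X _ hX)

theorem sig_res (hD : ∀ U, D U ↔ D₀ (U.filter H)) {b : E} (hb : H b) (P : Par) (R I : Finset E)
    (j : ℕ) (X : Finset E) (hX : ∀ e ∈ X, H e) :
    sig D P R I j X b ↔ sig D₀ P (R.filter H) (I.filter H) j X b := by
  unfold sig
  rw [rho_res hD hb _ _ _ _ _ _ _ _ hX]

theorem core_res (hD : ∀ U, D U ↔ D₀ (U.filter H)) (P : Par) (R I : Finset E)
    (j : ℕ) (X : Finset E) (hX : ∀ e ∈ X, H e) :
    core D P R I j X = core D₀ P (R.filter H) (I.filter H) j X := by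
  unfold core
  congr 1
  refine filter_congr fun Q hQ => ?_
  rw [mem_powerset] at hQ
  refine forall_congr' fun b => forall_congr' fun hb => ?_
  exact sig_res hD (hX b (hQ hb)) P R I j Q fun e he => hX e (hQ he)

theorem core_sub (P : Par) (R I : Finset E) (j : ℕ) (X : Finset E) :
    core D P R I j X ⊆ X := by
  unfold core
  refine Finset.sup_le fun Q hQ => ?_
  exact mem_powerset.1 (mem_filter.1 hQ).1

theorem Bad_res (hD : ∀ U, D U ↔ D₀ (U.filter H)) (P : Par) (R I : Finset E)
    (j : ℕ) (X : Finset E) (hX : ∀ e ∈ X, H e) :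
    Bad D P R I j X ↔ Bad D₀ P (R.filter H) (I.filter H) j X := by
  unfold Bad BBj
  rw [BB_res hD _ _ _ _ _ _ _ _ _ _ hX, core_res hD P R I j X hX,
    BB_res hD _ _ _ _ _ _ _ _ _ _ fun e he => hX e (core_sub P _ _ j X he)]

/-- the parameters are probabilities -/
structure Ok (P : Par) : Prop where
  g0 : 0 ≤ P.g
  g1 : P.g ≤ 1
  n0 : 0 ≤ P.n
  n1 : P.n ≤ 1
  t0 : 0 ≤ P.t
  t1 : P.t ≤ 1

theorem rel_mono {t dl : ℝ} {kap : ℕ} {I X X' W : Finset E} {b : E} (h : X ⊆ X') :
    rel D t dl kap I X b W → rel D t dl kap I X' b W := by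
  rintro ⟨U, h1, h2, h3⟩
  exact ⟨U, h1.trans (erase_subset_erase b h), h2, h3⟩

theorem sig_mono {P : Par} (hP : Ok P) {R I : Finset E} {j : ℕ} {X X' : Finset E} {b : E}
    (h : X ⊆ X') (hs : sig D P R I j X b) : sig D P R I j X' b := by
  refine le_trans hs ?_
  unfold rho
  refine thin_mono hP.g0 hP.g1 fun G _ => thin_mono hP.n0 hP.n1 fun N _ => ?_
  exact ind_mono (rel_mono h)

theorem sig_core {P : Par} (hP : Ok P) (R I : Finset E) (j : ℕ) (X : Finset E) :
    ∀ b ∈ core D P R I j X, sig D P R I j (core D P R I j X) b := by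
  intro b hb
  unfold core at hb
  rw [mem_sup] at hb
  obtain ⟨Q, hQ, hbQ⟩ := hb
  have h1 : Q ⊆ core D P R I j X := Finset.le_sup (f := id) hQ
  exact sig_mono hP h1 ((mem_filter.1 hQ).2 b hbQ)

theorem core_eq_self {P : Par} {R I : Finset E} {j : ℕ} {X : Finset E}
    (h : ∀ b ∈ X, sig D P R I j X b) : core D P R I j X = X := by
  refine Subset.antisymm (core_sub P R I j X) ?_
  exact Finset.le_sup (f := id) (mem_filter.2 ⟨mem_powerset.2 (Subset.refl X), h⟩)

theorem core_idem {P : Par} (hP : Ok P) (R I : Finset E) (j : ℕ) (X : Finset E) :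
    core D P R I j (core D P R I j X) = core D P R I j X :=
  core_eq_self (sig_core hP R I j X)

end

end Vale.Agent.P331.H221
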