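import Vale.Agent.P331.H221.RuleA3
import Vale.Agent.P331.H316.One
import Vale.Agent.P331.H316.BE
import Vale.Agent.P331.H316.HC
import Vale.Agent.P331.H316.CH
import Vale.Agent.P331.H250.Drop
import Vale.Agent.P331.H250.Core
import Vale.Agent.P331.H379.RowSPLIT
import Vale.Agent.P331.H379.RowJST
import Vale.Agent.P331.H250.MK
import Vale.Agent.P331.H454.RowQJ
import Vale.Agent.P331.H923.Step
import Vale.Agent.P331.H679.Sum

/-!
# Line A, assembled
-/

set_option autoImplicit false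

namespace Vale.Agent.P331.H221

open Vale.Agent.P331 Vale.Agent.P331.H316

theorem rowDROP : RowDROP := by
  intro E _ D hD P R I j K ht0 ht1 hg0 hg1 hn0 hn1 hdl _
  obtain ⟨st, h1, h2⟩ := H250.drop D hD P R I j K ht0 ht1 hg0 hg1 hn0 hn1 hdl
  exact ⟨st, h1, fun U hU W _ hc hrel => h2 U hU W hc hrel⟩

theorem rowSTEP : RowSTEP :=
  H923.rowSTEP H379.rowSPLIT H379.rowJST H250.rowMK H454.rowQJ rowDROP

/-- **The constant ratio, line A.** -/
theorem mainA : F.Main := by
  obtain ⟨p, s₁, s₂, P, hG⟩ := H679.rowSUM H316.rowONE (H250.rowCORE H316.rowHC H316.rowBES)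
    rowSTEP H316.rowCH
  refine ⟨p / 2, half_pos hG.1, fun E _ M hM => ?_⟩
  exact rowRULE p s₁ s₂ P hG H316.rowENT E M hM

end Vale.Agent.P331.H221

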