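import Vale.Agent.P331.H221.Cong
import Vale.Agent.P331.F.Sock

/-!
# The rule of line A
-/

set_option autoImplicit false
set_option linter.unusedSectionVars false
set_option linter.unusedVariables false

namespace Vale.Agent.P331.H221

open Finset Vale.Agent.P331 Vale.Agent.P331.H489 Vale.Agent.P331.H316 Vale.Agent.P331.H352
open scoped Classical ENNReal

/-- the levels are proper -/
def Lt1 (P : Par) : Prop := ∀ j, 0 ≤ P.eps j ∧ P.eps j < 1 ∧ 0 ≤ P.lam j ∧ P.lam j < 1 ∧
  0 ≤ P.zet j ∧ P.zet j < 1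

section

variable {E : Type} [Fintype E] (M : Matroid E)

/-- the sets spanning `z` -/
def Sp (z : E) (U : Finset E) : Prop := z ∈ M.closure (U : Set E)

theorem Sp_mono (z : E) {A B : Finset E} (h : A ⊆ B) (hA : Sp M z A) : Sp M z B :=
  M.closure_subset_closure (by exact_mod_cast h) hA

/-- the relevant sample elements -/
noncomputable def Rs (l : L4) (ω : E → L4) (H : Set E) : Finset E :=
  (H316.cls ω l).filter fun e => e ∈ H

/-- the frame of line A -/
noncomputable def DA (p s₁ s₂ : ℝ) (P : Par) (h0 : ∀ l, 0 ≤ w4 p s₁ s₂ l) (m : ℕ) :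
    Cores E L4 where
  w := w4 p s₁ s₂
  w0 := h0
  w1 := by rw [sum_L4]; simp only [w4]; ring
  v := .v
  n := m
  BB := fun j ω z H X => BBj (Sp M z) P (Rs .s ω H) (Rs .i ω H) j X
  core := fun j ω z H X => core (Sp M z) P (Rs .s ω H) (Rs .i ω H) j X

theorem Rs_hs (l : L4) (hl : l ≠ .v) (ω : E → L4) (lt : E → E → Prop) (z : E) :
    Rs l ω (hs L4.v ω lt z) = (H316.cls ω l).filter fun e => lt z e := by
  unfold Rs H316.cls hs
  ext e
  simp only [mem_filter, mem_univ, true_and, Set.mem_ofPred_eq]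
  constructor
  · rintro ⟨h1, h2, -⟩
    exact ⟨h1, h2⟩
  · rintro ⟨h1, h2⟩
    exact ⟨h1, h2, by rw [h1]; exact hl⟩

variable {M}

theorem bb_top {P : Par} (hP : Ok P) {z : E} {K R I G : Finset E} {e lam : ℝ} {kap : ℕ}
    (hK : Sp M z K) (he : 0 ≤ e) (hlam : 0 ≤ lam) (hk : Fintype.card E ≤ kap) :
    bb (Sp M z) P.n P.t e lam kap R I K G := by
  refine ⟨K, Subset.refl K, (card_le_univ K).trans hk, ?_⟩
  unfold fl
  have h1 : ∀ N ⊆ R \ G, H316.ind (e < psi (Sp M z) P.t I (K ∪ G ∪ N)) = 0 := by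
    intro N _
    refine ind_neg ?_
    have h2 : psi (Sp M z) P.t I (K ∪ G ∪ N) = 0 := by
      unfold psi
      have h3 : ∀ N' ⊆ I, H316.ind (¬ Sp M z (K ∪ G ∪ N ∪ N')) = 0 := by
        intro N' _
        refine ind_neg (not_not.2 (Sp_mono M z ?_ hK))
        intro x hx
        simp only [mem_union]
        tauto
      rw [thin_congr h3, thin_const]
    rw [h2]
    exact not_lt.2 he
  rw [thin_congr h1, thin_const]
  exact hlam

theorem BB_top {P : Par} (hP : Ok P) {z : E} {K R I : Finset E} {j : ℕ}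
    (hK : Sp M z K) (he : 0 ≤ P.eps j) (hlam : 0 ≤ P.lam j) (hz : 0 ≤ P.zet j)
    (hk : Fintype.card E ≤ P.kap j) : BBj (Sp M z) P R I j K := by
  unfold BBj H316.BB
  have h1 : ∀ G ⊆ R, H316.ind (bb (Sp M z) P.n P.t (P.eps j) (P.lam j) (P.kap j) R I K G) = 1 :=
    fun G _ => ind_pos (bb_top hP hK he hlam hk)
  rw [thin_congr h1, thin_const]
  linarith

theorem sig_top {P : Par} (hP : Ok P) {z : E} {K R I : Finset E} {j : ℕ}
    (hK : Sp M z K) (hmin : ∀ K' ⊂ K, ¬ Sp M z K') (hk : Fintype.card E ≤ P.kap j)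
    (hdl : P.dl j ≤ (1 - P.t) ^ Fintype.card E)
    (heta : P.eta j ≤ (1 - P.g) ^ Fintype.card E * (1 - P.n) ^ Fintype.card E) {b : E}
    (hb : b ∈ K) : sig (Sp M z) P R I j K b := by
  unfold sig rho
  have hrel : rel (Sp M z) P.t (P.dl j) (P.kap j) I K b (∅ ∪ ∅) := by
    refine ⟨K.erase b, Subset.refl _, (card_le_univ _).trans hk, hdl.trans ?_⟩
    unfold ppiv
    have h1 : Piv (Sp M z) b (K.erase b ∪ (∅ ∪ ∅) ∪ ∅) := by
      simp only [union_empty]
      refine ⟨?_, ?_⟩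
      · rw [insert_erase hb]
        exact hK
      · rw [erase_idem]
        exact hmin _ (erase_ssubset hb)
    have h2 := thin_ge_empty hP.t0 hP.t1 (S := I)
      (F := fun N => H316.ind (Piv (Sp M z) b (K.erase b ∪ (∅ ∪ ∅) ∪ N))) fun G _ => ind_nonneg _
    simp only [ind_pos h1, mul_one] at h2
    exact h2
  refine heta.trans ?_
  have h3 : ∀ G : Finset E, 0 ≤ thin P.n (R \ G)
      (fun N => H316.ind (rel (Sp M z) P.t (P.dl j) (P.kap j) I K b (G ∪ N))) := fun G =>
    thin_nonneg hP.n0 hP.n1 fun _ _ => ind_nonneg _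
  have h4 := thin_ge_empty hP.g0 hP.g1 (S := R) (F := fun G => thin P.n (R \ G)
      (fun N => H316.ind (rel (Sp M z) P.t (P.dl j) (P.kap j) I K b (G ∪ N)))) fun G _ => h3 G
  have h5 := thin_ge_empty hP.n0 hP.n1 (S := R \ ∅)
      (F := fun N => H316.ind (rel (Sp M z) P.t (P.dl j) (P.kap j) I K b (∅ ∪ N)))
      fun G _ => ind_nonneg _
  rw [ind_pos hrel, mul_one] at h5
  refine le_trans ?_ h4
  exact mul_le_mul_of_nonneg_left h5 (pow_nonneg (by linarith [hP.g1]) _)

theorem bb_zero {D : Finset E → Prop} {n t e lam : ℝ} {R I K G : Finset E} :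
    bb D n t e lam 0 R I K G ↔ bb D n t e lam 0 R I ∅ G := by
  constructor
  · rintro ⟨Y, -, h2, h3⟩
    have : Y = ∅ := card_eq_zero.1 (Nat.le_zero.1 h2)
    subst this
    exact ⟨∅, Subset.refl _, h2, h3⟩
  · rintro ⟨Y, h1, h2, h3⟩
    exact ⟨Y, h1.trans (empty_subset K), h2, h3⟩

theorem BB_free {P : Par} (hP : Ok P) (hL : Lt1 P) {D : Finset E → Prop} {R I K : Finset E}
    (hD : ∀ U, U ⊆ K ∪ R ∪ I → ¬ D U) (j : ℕ) : ¬ BBj D P R I j K := by
  obtain ⟨e0, e1, l0, l1, z0, z1⟩ := hL j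
  unfold BBj H316.BB
  have h1 : ∀ G ⊆ R, H316.ind (bb D P.n P.t (P.eps j) (P.lam j) (P.kap j) R I K G) = 0 := by
    intro G hG
    refine ind_neg ?_
    rintro ⟨Y, hY, -, h3⟩
    have h4 : fl D P.n P.t (P.eps j) (R \ G) I (Y ∪ G) = 1 := by
      unfold fl
      have h5 : ∀ N ⊆ R \ G, H316.ind (P.eps j < psi D P.t I (Y ∪ G ∪ N)) = 1 := by
        intro N hN
        refine ind_pos ?_
        have h6 : psi D P.t I (Y ∪ G ∪ N) = 1 := by
          unfold psi
          have h7 : ∀ N' ⊆ I, H316.ind (¬ D (Y ∪ G ∪ N ∪ N')) = 1 := by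
            intro N' hN'
            refine ind_pos (hD _ ?_)
            intro x hx
            simp only [mem_union] at hx ⊢
            rcases hx with ((hx | hx) | hx) | hx
            · exact Or.inl (Or.inl (hY hx))
            · exact Or.inl (Or.inr (hG hx))
            · exact Or.inl (Or.inr (mem_sdiff.1 (hN hx)).1)
            · exact Or.inr (hN' hx)
          rw [thin_congr h7, thin_const]
        rw [h6]
        exact e1
      rw [thin_congr h5, thin_const]
    rw [h4] at h3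
    linarith
  rw [thin_congr h1, thin_const]
  intro h
  linarith

/-- the hypotheses of the frame -/
theorem DA_ok {p s₁ s₂ : ℝ} {P : Par} {h0 : ∀ l, 0 ≤ w4 p s₁ s₂ l} {m : ℕ} (hP : Ok P)
    (hL : Lt1 P) (hk0 : P.kap 0 = 0) (hk : Fintype.card E ≤ P.kap m)
    (hdl : P.dl m ≤ (1 - P.t) ^ Fintype.card E)
    (heta : P.eta m ≤ (1 - P.g) ^ Fintype.card E * (1 - P.n) ^ Fintype.card E)
    (lt : E → E → Prop) : (DA M p s₁ s₂ P h0 m).Ok M lt where
  sub := fun j ω z X _ => core_sub P _ _ j X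
  idem := fun j ω z X _ => core_idem hP _ _ j X
  top := by
    intro ω z K _ h1 h2
    refine ⟨BB_top hP h1 (hL m).1 (hL m).2.2.1 (hL m).2.2.2.2.1 hk, ?_⟩
    exact core_eq_self fun b hb => sig_top hP h1 h2 hk hdl heta hb
  zero := by
    intro ω z K _ h
    change BBj (Sp M z) P _ _ 0 K at h
    change BBj (Sp M z) P _ _ 0 ∅
    unfold BBj H316.BB at h ⊢
    rw [hk0] at h ⊢
    have : (fun G => H316.ind (bb (Sp M z) P.n P.t (P.eps 0) (P.lam 0) 0
        (Rs .s ω (hs L4.v ω lt z)) (Rs .i ω (hs L4.v ω lt z)) K G)) = fun G =>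
        H316.ind (bb (Sp M z) P.n P.t (P.eps 0) (P.lam 0) 0
        (Rs .s ω (hs L4.v ω lt z)) (Rs .i ω (hs L4.v ω lt z)) ∅ G) := by
      funext G
      exact ind_congr bb_zero
    have h' := h
    change 1 - P.zet 0 ≤ thin P.g (Rs .s ω (hs L4.v ω lt z)) (fun G => H316.ind (bb (Sp M z) P.n P.t
      (P.eps 0) (P.lam 0) 0 (Rs .s ω (hs L4.v ω lt z)) (Rs .i ω (hs L4.v ω lt z)) K G)) at h'
    rw [this] at h'
    exact h'
  free := by
    intro j ω z hz K hK
    refine BB_free hP hL ?_ j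
    intro U hU hU2
    refine hz (M.closure_subset_closure ?_ hU2)
    intro e he
    have he' := hU (by exact_mod_cast he)
    simp only [mem_union] at he'
    rcases he' with (h | h) | h
    · exact (hK e h).2
    · unfold Rs at h
      exact (mem_filter.1 h).2.1
    · unfold Rs at h
      exact (mem_filter.1 h).2.1

end

end Vale.Agent.P331.H221
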