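import Vale.Agent.P331.H221.RuleA

/-!
# The rule of line A, probabilities
-/

set_option autoImplicit false
set_option linter.unusedSectionVars false
set_option linter.unusedVariables false

namespace Vale.Agent.P331.H221

open Finset Vale.Agent.P331 Vale.Agent.P331.H489 Vale.Agent.P331.H316 Vale.Agent.P331.H352
open scoped Classical ENNReal

section

variable {E : Type} [Fintype E]

/-- an event which does not see the label of `z` is independent of it -/
theorem EX_indep {L : Type} [Fintype L] [DecidableEq L] (z : E) (v : L) (w : E → L → ℝ)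
    (h1 : ∑ l, w z l = 1) (F : (E → L) → ℝ) (hF : ∀ ω l, F (Function.update ω z l) = F ω) :
    EX w (fun ω => if ω z = v then F ω else 0) = w z v * EX w F := by
  rw [EX_cond z v v, EX_split z v w F, ← sum_mul_of z v w F h1 hF]
where
  sum_mul_of (z : E) (v : L) (w : E → L → ℝ) (F : (E → L) → ℝ) (h1 : ∑ l, w z l = 1)
      (hF : ∀ ω l, F (Function.update ω z l) = F ω) :
      ∑ l, w z l * EX (Function.update w z (Pi.single v 1)) (fun ω => F (Function.update ω z l)) =
        EX (Function.update w z (Pi.single v 1)) (fun ω => F (Function.update ω z v)) := by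
    simp only [hF]
    rw [← sum_mul, h1, one_mul]

variable {M : Matroid E}

/-- the family of the target `z` -/
def Dz (M : Matroid E) (lt : E → E → Prop) (z : E) (U : Finset E) : Prop :=
  cov M lt z fun e => e ∈ U

theorem Dz_up (lt : E → E → Prop) (z : E) : Up (Dz M lt z) := fun A B h hA =>
  cov_mono M lt (fun e he => h he) hA

theorem Dz_res (lt : E → E → Prop) (z : E) (U : Finset E) :
    Dz M lt z U ↔ Sp M z (U.filter fun e => lt z e) := by
  unfold Dz cov Sp
  have : {e | lt z e ∧ e ∈ U} = ((U.filter fun e => lt z e : Finset E) : Set E) := by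
    ext e
    simp [and_comm]
  rw [this]

/-- the canonical event -/
def Fz (M : Matroid E) (P : Par) (lt : E → E → Prop) (j : ℕ) (b z : E) (ω : E → L4) : Prop :=
  ∃ X ⊆ (H316.cls ω .v).filter fun e => lt z e, b ∈ X ∧
    core (Sp M z) P ((H316.cls ω .s).filter fun e => lt z e)
      ((H316.cls ω .i).filter fun e => lt z e) (j + 1) X = X ∧
    Bad (Sp M z) P ((H316.cls ω .s).filter fun e => lt z e)
      ((H316.cls ω .i).filter fun e => lt z e) j X

theorem cls_update (lt : E → E → Prop) [Std.Irrefl lt] (z : E) (l' : L4) (ω : E → L4) (l : L4) :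
    (H316.cls (Function.update ω z l) l').filter (fun e => lt z e) =
      (H316.cls ω l').filter fun e => lt z e := by
  unfold H316.cls
  ext e
  simp only [mem_filter, mem_univ, true_and]
  constructor
  · rintro ⟨h1, h2⟩
    have hne : e ≠ z := by
      rintro rfl
      exact irrefl_of lt e h2
    rw [Function.update_of_ne hne] at h1
    exact ⟨h1, h2⟩
  · rintro ⟨h1, h2⟩
    have hne : e ≠ z := by
      rintro rfl
      exact irrefl_of lt e h2
    rw [Function.update_of_ne hne]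
    exact ⟨h1, h2⟩

theorem Fz_update (P : Par) (lt : E → E → Prop) [Std.Irrefl lt] (j : ℕ) (b z : E) (ω : E → L4)
    (l : L4) : Fz M P lt j b z (Function.update ω z l) ↔ Fz M P lt j b z ω := by
  unfold Fz
  rw [cls_update, cls_update, cls_update]

theorem Fz_ev {P : Par} {lt : E → E → Prop} {j : ℕ} {b z : E} {ω : E → L4}
    (h : Fz M P lt j b z ω) :
    Ev (Dz M lt z) P (H316.cls ω .s) (H316.cls ω .i) j b (H316.cls ω .v) := by
  obtain ⟨X, hX, hb, h1, h2⟩ := h
  have hXH : ∀ e ∈ X, lt z e := fun e he => (mem_filter.1 (hX he)).2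
  refine ⟨X, hX.trans (filter_subset _ _), hb, ?_, ?_⟩
  · rw [core_res (Dz_res lt z) P _ _ (j + 1) X hXH]
    exact h1
  · rw [Bad_res (Dz_res lt z) P _ _ j X hXH]
    exact h2

theorem ev_Fz {p s₁ s₂ : ℝ} {P : Par} {h0 : ∀ l, 0 ≤ w4 p s₁ s₂ l} {m : ℕ}
    {lt : E → E → Prop} {j : ℕ} {b z : E} {ω : E → L4}
    (h : (DA M p s₁ s₂ P h0 m).Ev lt (j + 1) b z ω) : ω z = .v ∧ Fz M P lt j b z ω := by
  obtain ⟨h1, h2, X, hb, hX, hbad⟩ := h
  refine ⟨h2, X, ?_, hb, ?_, ?_⟩
  · intro e he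
    unfold H316.cls
    simp only [mem_filter, mem_univ, true_and]
    exact hX e he
  · have := hbad.1
    change core (Sp M z) P (Rs .s ω (hs L4.v ω lt z)) (Rs .i ω (hs L4.v ω lt z)) (j + 1) X = X
      at this
    rwa [Rs_hs _ (by decide), Rs_hs _ (by decide)] at this
  · have h3 := hbad.2.1
    have h4 := hbad.2.2
    change BBj (Sp M z) P (Rs .s ω (hs L4.v ω lt z)) (Rs .i ω (hs L4.v ω lt z)) (j + 1) X at h3
    change ¬ BBj (Sp M z) P (Rs .s ω (hs L4.v ω lt z)) (Rs .i ω (hs L4.v ω lt z)) j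
      (core (Sp M z) P (Rs .s ω (hs L4.v ω lt z)) (Rs .i ω (hs L4.v ω lt z)) j X) at h4
    rw [Rs_hs _ (by decide), Rs_hs _ (by decide)] at h3 h4
    exact ⟨h3, h4⟩

theorem ev_le {p s₁ s₂ : ℝ} (P : Par) (h0 : ∀ l, 0 ≤ w4 p s₁ s₂ l) (m : ℕ)
    (lt : E → E → Prop) [Std.Irrefl lt] (j : ℕ) (b z : E) :
    EX (fun _ => (DA M p s₁ s₂ P h0 m).w)
      (fun ω : E → L4 => if (DA M p s₁ s₂ P h0 m).Ev lt (j + 1) b z ω then 1 else 0) ≤
      p * PR p s₁ s₂ (fun V R I => H316.ind (Ev (Dz M lt z) P R I j b V)) := by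
  have h1 : EX (fun _ : E => w4 p s₁ s₂)
      (fun ω : E → L4 => if (DA M p s₁ s₂ P h0 m).Ev lt (j + 1) b z ω then 1 else 0) ≤
      EX (fun _ : E => w4 p s₁ s₂)
        (fun ω : E → L4 => if ω z = .v then H316.ind (Fz M P lt j b z ω) else 0) := by
    refine EX_mono (fun _ l => h0 l) fun ω => ?_
    by_cases h : (DA M p s₁ s₂ P h0 m).Ev lt (j + 1) b z ω
    · obtain ⟨h2, h3⟩ := ev_Fz h
      rw [if_pos h, if_pos h2, ind_pos h3]
    · rw [if_neg h]
      split_ifs
      · exact ind_nonneg _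
      · exact le_rfl
  refine h1.trans ?_
  rw [EX_indep z L4.v (fun _ : E => w4 p s₁ s₂) (by rw [sum_L4]; simp only [w4]; ring)
    (fun ω => H316.ind (Fz M P lt j b z ω)) (fun ω l => ind_congr (Fz_update P lt j b z ω l))]
  have hp : w4 p s₁ s₂ L4.v = p := rfl
  rw [hp]
  refine mul_le_mul_of_nonneg_left ?_ (h0 L4.v)
  unfold PR
  exact EX_mono (fun _ l => h0 l) fun ω => ind_mono Fz_ev

end

/-- the rule of line A -/
theorem sockA {p s₁ s₂ : ℝ} {P : Par} (hG : Good p s₁ s₂ P) (hL : Lt1 P) (hE : RowENT) :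
    F.SockA p := by
  obtain ⟨hp, hs1, hs2, hsum, hg0, hg1, hn0, hn1, ht0, ht1, hT0, hT1, hk0, -, -, -, -, hkap, hde,
    hmain⟩ := hG
  have hP : Ok P := ⟨hg0.le, hg1.le, hn0.le, hn1.le, ht0.le, ht1.le⟩
  have h0 : ∀ l, 0 ≤ w4 p s₁ s₂ l := by
    intro l
    cases l
    · exact hp.le
    · exact hs1.le
    · exact hs2
    · change 0 ≤ 1 - p - s₁ - s₂
      linarith
  intro E _ M hM
  obtain ⟨a, ha⟩ := hkap (Fintype.card E)
  have hc : 0 < min ((1 - P.t) ^ Fintype.card E)
      ((1 - P.g) ^ Fintype.card E * (1 - P.n) ^ Fintype.card E) := by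
    refine lt_min (pow_pos (by linarith) _) (mul_pos (pow_pos (by linarith) _)
      (pow_pos (by linarith) _))
  obtain ⟨a', ha'⟩ := hde _ hc
  set m := max a a' with hm
  have h1 := ha m (le_max_left _ _)
  obtain ⟨h2, h3⟩ := ha' m (le_max_right _ _)
  refine ⟨L4, inferInstance, inferInstance, DA M p s₁ s₂ P h0 m, rfl, ?_, ?_⟩
  · intro lt _
    exact DA_ok hP hL hk0 h1 (h2.trans (min_le_left _ _)) (h3.trans (min_le_right _ _)) lt
  · intro lt hlt b hb
    have hT : 0 ≤ Th s₁ s₂ P := hT0.le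
    have h4 : ∀ z, z ≠ b → ∑ j ∈ Icc 1 (DA M p s₁ s₂ P h0 m).n,
        EX (fun _ => (DA M p s₁ s₂ P h0 m).w) (fun ω : E → L4 =>
          if (DA M p s₁ s₂ P h0 m).Ev lt j b z ω then (1 : ℝ) else 0) ≤
        p * (Th s₁ s₂ P / 2 * Jn (Dz M lt z) (Th s₁ s₂ P) b) := by
      intro z _
      have e1 : ∑ j ∈ Icc 1 (DA M p s₁ s₂ P h0 m).n,
        EX (fun _ => (DA M p s₁ s₂ P h0 m).w) (fun ω : E → L4 =>
          if (DA M p s₁ s₂ P h0 m).Ev lt j b z ω then (1 : ℝ) else 0) =
          ∑ j ∈ range m, EX (fun _ => (DA M p s₁ s₂ P h0 m).w) (fun ω : E → L4 =>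
          if (DA M p s₁ s₂ P h0 m).Ev lt (j + 1) b z ω then (1 : ℝ) else 0) := by
        change ∑ j ∈ Icc 1 m, _ = _
        rw [range_eq_Ico, sum_Ico_add' (fun j => EX (fun _ => (DA M p s₁ s₂ P h0 m).w)
          (fun ω : E → L4 => if (DA M p s₁ s₂ P h0 m).Ev lt j b z ω then (1 : ℝ) else 0)) 0 m 1]
        rfl
      rw [e1]
      refine (sum_le_sum fun j _ => ev_le P h0 m lt j b z).trans ?_
      rw [← mul_sum]
      exact mul_le_mul_of_nonneg_left (hmain E (Dz M lt z) (Dz_up lt z) b m) hp.le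
    refine F.sum_le_half hp.le h4 ?_
    rw [← mul_sum]
    have h5 := hE E M lt (Th s₁ s₂ P) hT hT1.le b
    change Th s₁ s₂ P * ∑ z ∈ univ.erase b, Jn (Dz M lt z) (Th s₁ s₂ P) b ≤ 1 at h5
    linarith

end Vale.Agent.P331.H221

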