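import Vale.Agent.P331.H221.RuleA2

/-!
# ROW RULE of line A
-/

set_option autoImplicit false

namespace Vale.Agent.P331.H221

open Vale.Agent.P331.H316 Vale.Agent.P331.H352

/-- **ROW RULE.** -/
theorem rowRULE : RowRULE := by
  intro p s₁ s₂ P hG hE E _ M hM
  have hG' := hG
  obtain ⟨hp, -, -, -, -, -, -, -, -, -, -, -, -, -, -, -, hall, -, -, -⟩ := hG
  obtain ⟨L, _, _, D, hw, hok, hsum⟩ := sockA hG' hall hE E M hM
  refine ⟨_, competitive_of_ev (D := D) hM hok fun lt hlt b hb => ?_⟩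
  have h1 := hsum lt hlt b hb
  rw [hw]
  linarith

end Vale.Agent.P331.H221
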